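import Vale.Agent.P372.H399.Pk
import Vale.Agent.P372.H897.Cliff
import Vale.Agent.P372.H405.Corner

open Matrix Kronecker
open scoped ComplexOrder

set_option linter.unusedSectionVars false

namespace Vale.Agent.P372.Fm

variable {m : ℕ}

theorem cw_eq (g : V m × V m) (j : Fin m) : cw g j = H897.wc g j := by
  rw [cw, H897.wc, ← Finset.sum_filter]
  have e : Finset.univ.filter (fun k => j < k) = Finset.Ioi j := by
    ext k
    rw [Finset.mem_filter, Finset.mem_Ioi]
    exact ⟨fun h => h.2, fun h => ⟨Finset.mem_univ k, h⟩⟩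
  rw [e]

theorem mu_eq (g : V m × V m) : mu g = H897.mu g := by
  rw [mu, H897.mu]
  simp only [cw_eq]
  rfl

theorem tk_eq (m : ℕ) : tk m = H897.tk m := by
  funext p q i j
  rw [tk, H897.tk]
  simp only [mu_eq]
  rfl

theorem SF_tk (m : ℕ) : SF (tk m) := by
  have h := H897.SF_tk m
  rw [← tk_eq] at h
  exact ⟨h.2, h.1⟩

theorem pl_trace (g : V m × V m) : (pl g).trace = if g = 0 then (2 : ℂ) ^ m else 0 := by
  have e : (pl g).trace = if g.1 = 0 then ∑ v : V m, (sg (v ⬝ᵥ g.2) : ℂ) else 0 := by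
    simp only [trace, diag_apply, pl]
    by_cases h : g.1 = 0
    · rw [if_pos h]
      refine Finset.sum_congr rfl fun v _ => ?_
      rw [h, add_zero, if_pos rfl, dotProduct_comm]
    · rw [if_neg h]
      refine Finset.sum_eq_zero fun v _ => ?_
      rw [if_neg]
      intro hv
      exact h (by simpa using hv)
  rw [e]
  have e2 := H897.sum_sg g.2
  have e3 : ∑ v : V m, (sg (v ⬝ᵥ g.2) : ℂ) = if g.2 = 0 then (2 : ℂ) ^ m else 0 := e2
  rw [e3]
  by_cases h1 : g.1 = 0
  · by_cases h2 : g.2 = 0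
    · rw [if_pos h1, if_pos h2, if_pos (Prod.ext h1 h2)]
    · rw [if_pos h1, if_neg h2, if_neg (fun h => h2 (congrArg Prod.snd h))]
  · rw [if_neg h1, if_neg (fun h => h1 (congrArg Prod.fst h))]

theorem pl_orth (g h : V m × V m) :
    ∑ p, ∑ q, pl g p q * pl h p q = if g = h then (2 : ℂ) ^ m else 0 := by
  have e : ∑ p, ∑ q, pl g p q * pl h p q = ((pl g)ᵀ * pl h).trace := by
    simp only [trace, diag_apply, mul_apply, transpose_apply]
    exact Finset.sum_comm
  have e2 : (pl g)ᵀ * pl h = (sg (g.1 ⬝ᵥ g.2 + g.2 ⬝ᵥ h.1) : ℂ) • pl (g + h) := H897.pl_tm g h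
  rw [e, e2, trace_smul, pl_trace, smul_eq_mul]
  by_cases hh : g = h
  · subst hh
    have e3 : g + g = 0 := H897.add_self_G g
    rw [if_pos e3, if_pos rfl]
    have e4 : g.1 ⬝ᵥ g.2 + g.2 ⬝ᵥ g.1 = 0 := by
      rw [dotProduct_comm g.2 g.1]
      exact CharTwo.add_self_eq_zero _
    rw [e4, sg, if_pos rfl]
    simp
  · rw [if_neg hh, if_neg, mul_zero]
    intro h0
    apply hh
    have e3 : h + h = 0 := H897.add_self_G h
    calc g = g + (h + h) := by rw [e3, add_zero]
      _ = (g + h) + h := by rw [add_assoc]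
      _ = h := by rw [h0, zero_add]

/-- The Pauli matrices are eigenvectors of the noise. -/
theorem ap_tk_pl (g : V m × V m) : ap (tk m) (pl g) = (mu g : ℂ) • pl g := by
  ext i j
  rw [ap, Matrix.smul_apply, smul_eq_mul]
  have e1 : ∀ p q, tk m p q i j * pl g p q =
      ((2 : ℂ) ^ m)⁻¹ * ∑ h : V m × V m, (mu h : ℂ) * pl h i j * (pl h p q * pl g p q) := by
    intro p q
    rw [tk, mul_assoc, Finset.sum_mul]
    refine congrArg _ (Finset.sum_congr rfl fun h _ => ?_)
    ring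
  simp only [e1]
  have e2 : ∀ p, ∑ q, ((2 : ℂ) ^ m)⁻¹ * ∑ h : V m × V m, (mu h : ℂ) * pl h i j *
      (pl h p q * pl g p q) = ((2 : ℂ) ^ m)⁻¹ * ∑ h : V m × V m, (mu h : ℂ) * pl h i j *
        ∑ q, (pl h p q * pl g p q) := by
    intro p
    rw [← Finset.mul_sum, Finset.sum_comm]
    refine congrArg _ (Finset.sum_congr rfl fun h _ => ?_)
    rw [Finset.mul_sum]
  simp only [e2]
  rw [← Finset.mul_sum, Finset.sum_comm]
  have e3 : ∀ h : V m × V m, ∑ p, (mu h : ℂ) * pl h i j * ∑ q, (pl h p q * pl g p q) =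
      (mu h : ℂ) * pl h i j * (if h = g then (2 : ℂ) ^ m else 0) := by
    intro h
    rw [← Finset.mul_sum, pl_orth]
  simp only [e3]
  rw [Finset.sum_eq_single g]
  · rw [if_pos rfl]
    have h2 : ((2 : ℂ) ^ m) ≠ 0 := pow_ne_zero _ two_ne_zero
    field_simp
  · intro h _ hh
    rw [if_neg hh, mul_zero]
  · exact fun h => absurd (Finset.mem_univ _) h

theorem mu_zero : mu (0 : V m × V m) = 1 := by
  rw [mu]
  have e : ∀ j, cw (0 : V m × V m) j = 0 := by
    intro j
    rw [cw]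
    simp
  simp [e, pw]

theorem pl_zero : pl (0 : V m × V m) = 1 := H897.pl_zero

theorem ap_tk_one (m : ℕ) : ap (tk m) 1 = 1 := by
  have h := ap_tk_pl (0 : V m × V m)
  rwa [mu_zero, pl_zero, Complex.ofReal_one, one_smul] at h

theorem tk_dual (p q i j : V m) : tk m p q i j = tk m j i q p := by
  rw [tk, tk]
  refine congrArg _ (Finset.sum_congr rfl fun g _ => ?_)
  have e : ∀ u v : V m, pl g v u = (sg (g.1 ⬝ᵥ g.2) : ℂ) * pl g u v := by
    intro u v
    have h : (pl g)ᵀ = (sg (g.1 ⬝ᵥ g.2) : ℂ) • pl g := H897.pl_transpose g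
    have h2 := congrFun (congrFun h u) v
    rwa [transpose_apply, Matrix.smul_apply, smul_eq_mul] at h2
  rw [e i j, e p q]
  have h1 : (sg (g.1 ⬝ᵥ g.2) : ℂ) * (sg (g.1 ⬝ᵥ g.2) : ℂ) = 1 := by
    have h := H897.sg_mul_self (g.1 ⬝ᵥ g.2)
    have h' : sg (g.1 ⬝ᵥ g.2) * sg (g.1 ⬝ᵥ g.2) = 1 := h
    exact_mod_cast h'
  linear_combination (-(mu g : ℂ) * pl g i j * pl g p q) * h1

/-- The index type of `n` copies. -/
abbrev P (m n : ℕ) : Type := (Fin n → V m) × (Fin n → V m)

/-- The noise on `n` copies of both systems. -/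
noncomputable def S (m n : ℕ) : Matrix (P m n) (P m n) ℂ →ₗ[ℂ] Matrix (P m n) (P m n) ℂ where
  toFun := ap (pk n (fun _ => tk m) (fun _ => tk m))
  map_add' := ap_add _
  map_smul' := ap_smul _

theorem S_apply (m n : ℕ) (Y : Matrix (P m n) (P m n) ℂ) :
    S m n Y = ap (pk n (fun _ => tk m) (fun _ => tk m)) Y := rfl

theorem SF_S (m n : ℕ) : SF (pk n (fun _ => tk m) (fun _ => tk m)) :=
  SF_pk (fun _ => SF_tk m) (fun _ => SF_tk m)

/-- The noise on `n` copies of both systems has all the properties of the corner lemma. -/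
theorem isFlip_S (m n : ℕ) : H405.IsFlip (S m n) := by
  have hd : ∀ X Y : Matrix (P m n) (P m n) ℂ, (S m n X * Y).trace = (X * S m n Y).trace :=
    fun X Y => ap_dual (pk_dual (fun _ => tk_dual) (fun _ => tk_dual)) X Y
  have h1 : S m n 1 = 1 := ap_pk_one (fun _ => ap_tk_one m) (fun _ => ap_tk_one m)
  refine ⟨fun X => ?_, h1, fun X => ?_, hd, fun X C Y h => ?_, fun Y => ?_⟩
  · have h := hd X 1
    rwa [h1, Matrix.mul_one, Matrix.mul_one] at h
  · exact ap_conjTranspose (SF_S m n).choi X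
  · have h2 := ap_blocks (SF_S m n).choi h
    rw [ap_conjTranspose (SF_S m n).choi] at h2
    exact h2
  · exact (SF_S m n).coSchwarz Y

/-- The one-copy noise on both systems. -/
noncomputable def T2 (m : ℕ) (X : Matrix (V m × V m) (V m × V m) ℂ) :
    Matrix (V m × V m) (V m × V m) ℂ :=
  ap (fun p q i j => tk m p.1 q.1 i.1 j.1 * tk m p.2 q.2 i.2 j.2) X

theorem T2_kron (a b : Matrix (V m) (V m) ℂ) :
    T2 m (a ⊗ₖ b) = ap (tk m) a ⊗ₖ ap (tk m) b := by
  ext i j
  rw [kroneckerMap_apply, T2, ap, ap, ap, Finset.sum_mul_sum, Fintype.sum_prod_type]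
  refine Finset.sum_congr rfl fun p _ => Finset.sum_congr rfl fun p' _ => ?_
  rw [Finset.sum_mul_sum, Fintype.sum_prod_type]
  refine Finset.sum_congr rfl fun q _ => Finset.sum_congr rfl fun q' _ => ?_
  rw [kroneckerMap_apply]
  ring

/-- The noise on a product of one-copy operators. -/
theorem S_prod (m n : ℕ) (Y : Fin n → Matrix (V m × V m) (V m × V m) ℂ) :
    S m n (fun p q => ∏ s, Y s (p.1 s, p.2 s) (q.1 s, q.2 s)) =
      fun p q => ∏ s, T2 m (Y s) (p.1 s, p.2 s) (q.1 s, q.2 s) :=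
  ap_pk_prod (fun _ => tk m) (fun _ => tk m) Y

/-- The noise on a product operator. -/
theorem S_kron (m n : ℕ) (a b : Matrix (Fin n → V m) (Fin n → V m) ℂ) :
    S m n (a ⊗ₖ b) =
      ap (fun p q i j => ∏ s, tk m (p s) (q s) (i s) (j s)) a ⊗ₖ
      ap (fun p q i j => ∏ s, tk m (p s) (q s) (i s) (j s)) b :=
  ap_pk_kron (fun _ => tk m) (fun _ => tk m) a b

theorem T2_one (m : ℕ) : T2 m 1 = 1 := by
  rw [← one_kronecker_one, T2_kron, ap_tk_one]

theorem T2_dual (X Y : Matrix (V m × V m) (V m × V m) ℂ) :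
    (T2 m X * Y).trace = (X * T2 m Y).trace :=
  ap_dual (fun p q i j => by rw [tk_dual, tk_dual p.2]) X Y

theorem T2_add (X Y : Matrix (V m × V m) (V m × V m) ℂ) : T2 m (X + Y) = T2 m X + T2 m Y :=
  ap_add _ X Y

theorem T2_smul (c : ℂ) (X : Matrix (V m × V m) (V m × V m) ℂ) : T2 m (c • X) = c • T2 m X :=
  ap_smul _ c X

end Vale.Agent.P372.Fm
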