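import Mathlib

open Matrix Kronecker
open scoped ComplexOrder

namespace Vale.Agent.P372.Fm

/-- The action of the kernel `t` on matrices. -/
def ap {I : Type} [Fintype I] (t : I → I → I → I → ℂ) (Y : Matrix I I ℂ) : Matrix I I ℂ :=
  fun i j => ∑ p, ∑ q, t p q i j * Y p q

/-- The kernel on `n` copies of `A` and `n` copies of `B`, with kernel `t s` on the copy `s` of `A`
and `t' s` on the copy `s` of `B`. -/
def pk {A B : Type} (n : ℕ) (t : Fin n → A → A → A → A → ℂ) (t' : Fin n → B → B → B → B → ℂ)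
    (p q i j : (Fin n → A) × (Fin n → B)) : ℂ :=
  ∏ s, t s (p.1 s) (q.1 s) (i.1 s) (j.1 s) * t' s (p.2 s) (q.2 s) (i.2 s) (j.2 s)

/-- The bits. -/
abbrev V (m : ℕ) : Type := Fin m → ZMod 2

/-- The sign of a bit. -/
def sg (z : ZMod 2) : ℝ := if z = 0 then 1 else -1

/-- The real Pauli matrices. -/
def pl {m : ℕ} (g : V m × V m) : Matrix (V m) (V m) ℂ :=
  fun u v => if u = v + g.1 then (sg (g.2 ⬝ᵥ v) : ℂ) else 0

/-- The weight of a bit. -/
noncomputable def pw (z : ZMod 2) : ℝ := if z = 0 then 1 else (√3)⁻¹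

/-- The second Clifford coordinate at `j`; the first one is `g.1 j + cw g j`. -/
def cw {m : ℕ} (g : V m × V m) (j : Fin m) : ZMod 2 := g.2 j + ∑ k, if j < k then g.1 k else 0

/-- The eigenvalues of the noise. -/
noncomputable def mu {m : ℕ} (g : V m × V m) : ℝ :=
  pw (∑ j, g.1 j) * ∏ j, (pw (g.1 j + cw g j) * pw (cw g j))

/-- The kernel of the noise on one system. -/
noncomputable def tk (m : ℕ) (p q i j : V m) : ℂ :=
  ((2 : ℂ) ^ m)⁻¹ * ∑ g : V m × V m, (mu g : ℂ) * pl g p q * pl g i j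

end Vale.Agent.P372.Fm
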