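import Vale.Agent.P372.H399.FmDefs

open Matrix Kronecker
open scoped ComplexOrder

namespace Vale.Agent.P372.Fm

variable {I : Type} [Fintype I]

theorem ap_add (t : I → I → I → I → ℂ) (X Y : Matrix I I ℂ) :
    ap t (X + Y) = ap t X + ap t Y := by
  ext i j
  simp only [ap, Matrix.add_apply, mul_add, Finset.sum_add_distrib]

theorem ap_smul (t : I → I → I → I → ℂ) (c : ℂ) (Y : Matrix I I ℂ) :
    ap t (c • Y) = c • ap t Y := by
  ext i j
  simp only [ap, Matrix.smul_apply, smul_eq_mul, Finset.mul_sum]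
  refine Finset.sum_congr rfl fun p _ => Finset.sum_congr rfl fun q _ => ?_
  ring

theorem ap_zero (t : I → I → I → I → ℂ) : ap t (0 : Matrix I I ℂ) = 0 := by
  have h := ap_smul t 0 (0 : Matrix I I ℂ)
  rwa [zero_smul, zero_smul] at h

theorem ap_neg (t : I → I → I → I → ℂ) (Y : Matrix I I ℂ) : ap t (-Y) = -ap t Y := by
  have h := ap_smul t (-1) Y
  rwa [neg_one_smul, neg_one_smul] at h

theorem ap_sub (t : I → I → I → I → ℂ) (X Y : Matrix I I ℂ) :
    ap t (X - Y) = ap t X - ap t Y := by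
  rw [sub_eq_add_neg, ap_add, ap_neg, ← sub_eq_add_neg]

theorem ap_sum {κ : Type} (s : Finset κ) (t : I → I → I → I → ℂ) (Y : κ → Matrix I I ℂ) :
    ap t (∑ k ∈ s, Y k) = ∑ k ∈ s, ap t (Y k) := by
  classical
  induction s using Finset.induction_on with
  | empty => rw [Finset.sum_empty, Finset.sum_empty, ap_zero]
  | insert a s ha ih => rw [Finset.sum_insert ha, Finset.sum_insert ha, ap_add, ih]

/-- The kernel of `Y ↦ T (Yᴴ * Y)`. -/
def K1 [DecidableEq I] (t : I → I → I → I → ℂ) : Matrix ((I × I) × I) ((I × I) × I) ℂ :=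
  fun x y => if x.1.1 = y.1.1 then t x.1.2 y.1.2 x.2 y.2 else 0

/-- The kernel of `Y ↦ T Y * (T Y)ᴴ`. -/
def K2 (t : I → I → I → I → ℂ) : Matrix ((I × I) × I) ((I × I) × I) ℂ :=
  fun x y => ∑ k, t y.1.1 y.1.2 x.2 k * star (t x.1.1 x.1.2 y.2 k)

/-- The strong flip property. -/
def SF [DecidableEq I] (t : I → I → I → I → ℂ) : Prop :=
  (K1 t + K2 t).PosSemidef ∧ (K1 t - K2 t).PosSemidef

/-- The contraction of a kernel with a matrix. -/
theorem contract_psd [DecidableEq I] {K : Matrix ((I × I) × I) ((I × I) × I) ℂ}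
    (h : K.PosSemidef) (Y : Matrix I I ℂ) : (Matrix.of fun i j : I => ∑ x : I × I, ∑ y : I × I,
      star (Y x.1 x.2) * K (x, i) (y, j) * Y y.1 y.2 : Matrix I I ℂ).PosSemidef := by
  have h1 := h.conjTranspose_mul_mul_same
    (Matrix.of fun (x : (I × I) × I) (j : I) => if x.2 = j then Y x.1.1 x.1.2 else 0)
  have e : (Matrix.of fun i j : I => ∑ x : I × I, ∑ y : I × I,
      star (Y x.1 x.2) * K (x, i) (y, j) * Y y.1 y.2 : Matrix I I ℂ) =
      (Matrix.of fun (x : (I × I) × I) (j : I) => if x.2 = j then Y x.1.1 x.1.2 else 0)ᴴ * K *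
      (Matrix.of fun (x : (I × I) × I) (j : I) => if x.2 = j then Y x.1.1 x.1.2 else 0) := by
    ext i j
    rw [Matrix.mul_assoc, mul_apply, Fintype.sum_prod_type]
    rw [of_apply]
    refine Finset.sum_congr rfl fun x _ => ?_
    simp only [of_apply, conjTranspose_apply]
    refine Eq.trans ?_ (Finset.sum_eq_single i ?_ ?_).symm
    · rw [if_pos rfl, mul_apply, Finset.mul_sum]
      refine Eq.trans ?_ (Fintype.sum_prod_type _).symm
      refine Finset.sum_congr rfl fun y _ => ?_
      rw [Finset.sum_eq_single j]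
      · rw [of_apply, if_pos rfl]
        ring
      · intro b _ hb
        rw [of_apply, if_neg hb, mul_zero, mul_zero]
      · exact fun h => absurd (Finset.mem_univ _) h
    · intro b _ hb
      rw [if_neg hb, star_zero, zero_mul]
    · exact fun h => absurd (Finset.mem_univ _) h
  rw [e]
  exact h1

theorem contract_K1 [DecidableEq I] (t : I → I → I → I → ℂ) (Y : Matrix I I ℂ) (i j : I) :
    ∑ x : I × I, ∑ y : I × I, star (Y x.1 x.2) * K1 t (x, i) (y, j) * Y y.1 y.2 =
      ap t (Yᴴ * Y) i j := by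
  rw [ap]
  simp only [Fintype.sum_prod_type, K1, mul_apply, conjTranspose_apply, Finset.mul_sum]
  have e : ∀ p : I, ∑ q : I, ∑ r : I, ∑ s : I,
      star (Y p q) * (if p = r then t q s i j else 0) * Y r s =
      ∑ q : I, ∑ s : I, t q s i j * (star (Y p q) * Y p s) := by
    intro p
    refine Finset.sum_congr rfl fun q _ => ?_
    rw [Finset.sum_eq_single p]
    · refine Finset.sum_congr rfl fun s _ => ?_
      rw [if_pos rfl]
      ring
    · intro r _ hr
      refine Finset.sum_eq_zero fun s _ => ?_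
      rw [if_neg (Ne.symm hr), mul_zero, zero_mul]
    · exact fun h => absurd (Finset.mem_univ _) h
  simp only [e]
  rw [Finset.sum_comm]
  refine Finset.sum_congr rfl fun q _ => ?_
  exact Finset.sum_comm

theorem contract_K2 (t : I → I → I → I → ℂ) (Y : Matrix I I ℂ) (i j : I) :
    ∑ x : I × I, ∑ y : I × I, star (Y x.1 x.2) * K2 t (x, i) (y, j) * Y y.1 y.2 =
      (ap t Y * (ap t Y)ᴴ) i j := by
  rw [mul_apply]
  have e1 : ∀ a b : I, ap t Y a b = ∑ x : I × I, t x.1 x.2 a b * Y x.1 x.2 := by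
    intro a b
    rw [ap, Fintype.sum_prod_type]
  simp only [conjTranspose_apply, e1, star_sum, Finset.sum_mul_sum, K2]
  have e2 : ∀ x y : I × I, star (Y x.1 x.2) * (∑ k, t y.1 y.2 i k * star (t x.1 x.2 j k)) *
      Y y.1 y.2 = ∑ k, t y.1 y.2 i k * Y y.1 y.2 * star (t x.1 x.2 j k * Y x.1 x.2) := by
    intro x y
    rw [Finset.mul_sum, Finset.sum_mul]
    refine Finset.sum_congr rfl fun k _ => ?_
    rw [star_mul']
    ring
  simp only [e2]
  have e3 : ∀ x : I × I, ∑ y : I × I, ∑ k, t y.1 y.2 i k * Y y.1 y.2 *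
      star (t x.1 x.2 j k * Y x.1 x.2) = ∑ k, ∑ y : I × I, t y.1 y.2 i k * Y y.1 y.2 *
      star (t x.1 x.2 j k * Y x.1 x.2) := fun x => Finset.sum_comm
  simp only [e3]
  rw [Finset.sum_comm]
  refine Finset.sum_congr rfl fun k _ => ?_
  rw [Finset.sum_comm]

/-- The strong flip property gives the co-Schwarz inequality. -/
theorem SF.coSchwarz [DecidableEq I] {t : I → I → I → I → ℂ} (h : SF t) (Y : Matrix I I ℂ) :
    (ap t (Yᴴ * Y) - ap t Y * (ap t Y)ᴴ).PosSemidef := by
  have h1 := contract_psd h.2 Y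
  have e : (Matrix.of fun i j : I => ∑ x : I × I, ∑ y : I × I,
      star (Y x.1 x.2) * (K1 t - K2 t) (x, i) (y, j) * Y y.1 y.2 : Matrix I I ℂ) =
      ap t (Yᴴ * Y) - ap t Y * (ap t Y)ᴴ := by
    ext i j
    rw [Matrix.sub_apply, ← contract_K1, ← contract_K2, of_apply, ← Finset.sum_sub_distrib]
    refine Finset.sum_congr rfl fun x _ => ?_
    rw [← Finset.sum_sub_distrib]
    refine Finset.sum_congr rfl fun y _ => ?_
    rw [Matrix.sub_apply]
    ring
  rwa [e] at h1

/-- The Choi matrix of a kernel. -/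
def choi (t : I → I → I → I → ℂ) : Matrix (I × I) (I × I) ℂ := fun x y => t x.1 y.1 x.2 y.2

theorem SF.choi [DecidableEq I] {t : I → I → I → I → ℂ} (h : SF t) : (choi t).PosSemidef := by
  have h1 : (K1 t).PosSemidef := by
    have h2 := (h.1.add h.2).smul (show (0 : ℝ) ≤ 1 / 2 by norm_num)
    have e : (1 / 2 : ℝ) • (K1 t + K2 t + (K1 t - K2 t)) = K1 t := by
      rw [add_add_sub_cancel, smul_add, ← add_smul, add_halves, one_smul]
    rwa [e] at h2
  rcases isEmpty_or_nonempty I with hI | ⟨⟨i0⟩⟩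
  · exact (Subsingleton.elim (0 : Matrix (I × I) (I × I) ℂ) (Fm.choi t)) ▸ PosSemidef.zero
  · have h2 := h1.submatrix (fun x : I × I => (((i0, x.1), x.2) : (I × I) × I))
    have e : (K1 t).submatrix (fun x : I × I => (((i0, x.1), x.2) : (I × I) × I))
        (fun x : I × I => (((i0, x.1), x.2) : (I × I) × I)) = Fm.choi t := by
      ext x y
      rw [submatrix_apply, K1, if_pos rfl, Fm.choi]
    rwa [e] at h2

open scoped MatrixOrder in
theorem exists_factor {J : Type} [Fintype J] {X : Matrix J J ℂ} (h : X.PosSemidef) :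
    ∃ R : Matrix J J ℂ, X = Rᴴ * R := by
  classical
  obtain ⟨R, hR⟩ := CStarAlgebra.nonneg_iff_eq_star_mul_self.mp h.nonneg
  exact ⟨R, hR⟩

/-- Kraus operators. -/
theorem exists_kraus {t : I → I → I → I → ℂ} (h : (choi t).PosSemidef) :
    ∃ G : I × I → Matrix I I ℂ, ∀ Y, ap t Y = ∑ k, (G k)ᴴ * Y * G k := by
  classical
  obtain ⟨R, hR⟩ := exists_factor h
  refine ⟨fun k => Matrix.of fun p i => R k (p, i), fun Y => ?_⟩
  ext i j
  rw [ap, Matrix.sum_apply]
  have e : ∀ p q i j, t p q i j = ∑ k, star (R k (p, i)) * R k (q, j) := by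
    intro p q i j
    have e1 : t p q i j = choi t (p, i) (q, j) := rfl
    rw [e1, hR, mul_apply]
    rfl
  simp only [e, Finset.sum_mul]
  have e3 : ∀ p : I, ∑ q : I, ∑ k : I × I, star (R k (p, i)) * R k (q, j) * Y p q =
      ∑ k : I × I, ∑ q : I, star (R k (p, i)) * R k (q, j) * Y p q := fun p => Finset.sum_comm
  simp only [e3]
  rw [Finset.sum_comm]
  refine Finset.sum_congr rfl fun k _ => ?_
  rw [Matrix.mul_assoc, mul_apply]
  refine Finset.sum_congr rfl fun p _ => ?_
  rw [mul_apply, Finset.mul_sum]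
  refine Finset.sum_congr rfl fun q _ => ?_
  rw [conjTranspose_apply, of_apply, of_apply]
  ring

theorem ap_psd {t : I → I → I → I → ℂ} (h : (choi t).PosSemidef) {Y : Matrix I I ℂ}
    (hY : Y.PosSemidef) : (ap t Y).PosSemidef := by
  obtain ⟨G, hG⟩ := exists_kraus h
  rw [hG]
  exact posSemidef_sum _ fun k _ => hY.conjTranspose_mul_mul_same (G k)

theorem ap_conjTranspose {t : I → I → I → I → ℂ} (h : (choi t).PosSemidef) (Y : Matrix I I ℂ) :
    ap t Yᴴ = (ap t Y)ᴴ := by
  obtain ⟨G, hG⟩ := exists_kraus h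
  rw [hG, hG, conjTranspose_sum]
  refine Finset.sum_congr rfl fun k _ => ?_
  rw [conjTranspose_mul, conjTranspose_mul, conjTranspose_conjTranspose, Matrix.mul_assoc]

/-- A completely positive map is 2-positive. -/
theorem ap_blocks {t : I → I → I → I → ℂ} (h : (choi t).PosSemidef) {X C D Z : Matrix I I ℂ}
    (hX : (fromBlocks X C D Z).PosSemidef) :
    (fromBlocks (ap t X) (ap t C) (ap t D) (ap t Z)).PosSemidef := by
  classical
  obtain ⟨G, hG⟩ := exists_kraus h
  have e : fromBlocks (ap t X) (ap t C) (ap t D) (ap t Z) =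
      ∑ k, (fromBlocks (G k) 0 0 (G k))ᴴ * fromBlocks X C D Z * fromBlocks (G k) 0 0 (G k) := by
    have e1 : ∀ k, (fromBlocks (G k) 0 0 (G k))ᴴ * fromBlocks X C D Z *
        fromBlocks (G k) 0 0 (G k) = fromBlocks ((G k)ᴴ * X * G k) ((G k)ᴴ * C * G k)
          ((G k)ᴴ * D * G k) ((G k)ᴴ * Z * G k) := by
      intro k
      rw [fromBlocks_conjTranspose, fromBlocks_multiply, fromBlocks_multiply]
      simp only [conjTranspose_zero, Matrix.zero_mul, Matrix.mul_zero, add_zero, zero_add]
    simp only [e1, hG]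
    ext i j
    rcases i with i | i <;> rcases j with j | j <;>
      simp only [Matrix.sum_apply, fromBlocks_apply₁₁, fromBlocks_apply₁₂, fromBlocks_apply₂₁,
        fromBlocks_apply₂₂]
  rw [e]
  exact posSemidef_sum _ fun k _ => hX.conjTranspose_mul_mul_same _

/-- Self-duality for the bilinear form `tr (X * Y)`. -/
theorem ap_dual {t : I → I → I → I → ℂ} (h : ∀ p q i j, t p q i j = t j i q p)
    (X Y : Matrix I I ℂ) : (ap t X * Y).trace = (X * ap t Y).trace := by
  simp only [trace, diag_apply, mul_apply, ap, Finset.sum_mul, Finset.mul_sum]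
  have e1 : ∀ i : I, ∑ j : I, ∑ p : I, ∑ q : I, t p q i j * X p q * Y j i =
      ∑ p : I, ∑ q : I, ∑ j : I, t p q i j * X p q * Y j i := by
    intro i
    rw [Finset.sum_comm]
    refine Finset.sum_congr rfl fun p _ => ?_
    rw [Finset.sum_comm]
  simp only [e1]
  rw [Finset.sum_comm]
  refine Finset.sum_congr rfl fun p _ => ?_
  rw [Finset.sum_comm]
  refine Finset.sum_congr rfl fun q _ => ?_
  rw [Finset.sum_comm]
  refine Finset.sum_congr rfl fun j _ => Finset.sum_congr rfl fun i _ => ?_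
  rw [h p q i j]
  ring

/-! ### Pairs of kernels -/

section pairs

variable {J : Type}

theorem hadamard_psd [Finite J] {M N : Matrix J J ℂ} (hM : M.PosSemidef) (hN : N.PosSemidef) :
    (Matrix.of fun x y => M x y * N x y : Matrix J J ℂ).PosSemidef :=
  hM.hadamard hN

theorem pair_mul [Finite J] {M N M' N' : Matrix J J ℂ} (h1 : (M + N).PosSemidef)
    (h2 : (M - N).PosSemidef) (h1' : (M' + N').PosSemidef) (h2' : (M' - N').PosSemidef) :
    ((Matrix.of fun x y => M x y * M' x y : Matrix J J ℂ) +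
      (Matrix.of fun x y => N x y * N' x y)).PosSemidef ∧
    ((Matrix.of fun x y => M x y * M' x y : Matrix J J ℂ) -
      (Matrix.of fun x y => N x y * N' x y)).PosSemidef := by
  have hh : (0 : ℝ) ≤ 1 / 2 := by norm_num
  constructor
  · have h := ((hadamard_psd h1 h1').add (hadamard_psd h2 h2')).smul hh
    have e : (1 / 2 : ℝ) • ((Matrix.of fun x y => (M + N) x y * (M' + N') x y : Matrix J J ℂ) +
        (Matrix.of fun x y => (M - N) x y * (M' - N') x y)) =
        (Matrix.of fun x y => M x y * M' x y : Matrix J J ℂ) +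
        (Matrix.of fun x y => N x y * N' x y) := by
      ext x y
      simp only [Matrix.smul_apply, Matrix.add_apply, of_apply, Matrix.sub_apply,
        Complex.real_smul]
      push_cast
      ring
    rwa [e] at h
  · have h := ((hadamard_psd h1 h2').add (hadamard_psd h2 h1')).smul hh
    have e : (1 / 2 : ℝ) • ((Matrix.of fun x y => (M + N) x y * (M' - N') x y : Matrix J J ℂ) +
        (Matrix.of fun x y => (M - N) x y * (M' + N') x y)) =
        (Matrix.of fun x y => M x y * M' x y : Matrix J J ℂ) -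
        (Matrix.of fun x y => N x y * N' x y) := by
      ext x y
      simp only [Matrix.smul_apply, Matrix.add_apply, of_apply, Matrix.sub_apply,
        Complex.real_smul]
      push_cast
      ring
    rwa [e] at h

/-- Products of pairs over a finite set. -/
theorem pair_prod [Finite J] {κ : Type} (s : Finset κ) (M N : κ → Matrix J J ℂ)
    (h1 : ∀ k ∈ s, (M k + N k).PosSemidef) (h2 : ∀ k ∈ s, (M k - N k).PosSemidef) :
    ((Matrix.of fun x y => ∏ k ∈ s, M k x y : Matrix J J ℂ) +
      (Matrix.of fun x y => ∏ k ∈ s, N k x y)).PosSemidef ∧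
    ((Matrix.of fun x y => ∏ k ∈ s, M k x y : Matrix J J ℂ) -
      (Matrix.of fun x y => ∏ k ∈ s, N k x y)).PosSemidef := by
  classical
  induction s using Finset.induction_on with
  | empty =>
    have := Fintype.ofFinite J
    have h0 : (Matrix.of fun _ _ => 1 : Matrix J J ℂ).PosSemidef := by
      have h := posSemidef_vecMulVec_self_star (fun _ : J => (1 : ℂ))
      have e : vecMulVec (fun _ : J => (1 : ℂ)) (star fun _ : J => (1 : ℂ)) =
          (Matrix.of fun _ _ => 1 : Matrix J J ℂ) := by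
        ext x y
        simp [vecMulVec_apply]
      rwa [e] at h
    simp only [Finset.prod_empty]
    refine ⟨h0.add h0, ?_⟩
    rw [sub_self]
    exact PosSemidef.zero
  | insert a s ha ih =>
    obtain ⟨i1, i2⟩ := ih (fun k hk => h1 k (Finset.mem_insert_of_mem hk))
      (fun k hk => h2 k (Finset.mem_insert_of_mem hk))
    have h := pair_mul (h1 a (Finset.mem_insert_self a s)) (h2 a (Finset.mem_insert_self a s)) i1 i2
    simpa only [Finset.prod_insert ha, of_apply] using h

end pairs

end Vale.Agent.P372.Fm
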