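import Vale.Agent.P372.H399.Ker

open Matrix Kronecker
open scoped ComplexOrder

set_option linter.unusedSectionVars false

namespace Vale.Agent.P372.Fm

variable {A B : Type} [Fintype A] [DecidableEq A] [Fintype B] [DecidableEq B] {n : ℕ}

/-- Evaluation of the big index at the copy `s` of `A`. -/
def evA (s : Fin n) (x : (((Fin n → A) × (Fin n → B)) × ((Fin n → A) × (Fin n → B))) ×
    ((Fin n → A) × (Fin n → B))) : (A × A) × A := ((x.1.1.1 s, x.1.2.1 s), x.2.1 s)

/-- Evaluation of the big index at the copy `s` of `B`. -/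
def evB (s : Fin n) (x : (((Fin n → A) × (Fin n → B)) × ((Fin n → A) × (Fin n → B))) ×
    ((Fin n → A) × (Fin n → B))) : (B × B) × B := ((x.1.1.2 s, x.1.2.2 s), x.2.2 s)

theorem K1_pk (t : Fin n → A → A → A → A → ℂ) (t' : Fin n → B → B → B → B → ℂ)
    (x y : (((Fin n → A) × (Fin n → B)) × ((Fin n → A) × (Fin n → B))) ×
      ((Fin n → A) × (Fin n → B))) :
    K1 (pk n t t') x y = ∏ s, (K1 (t s) (evA s x) (evA s y) * K1 (t' s) (evB s x) (evB s y)) := by
  rw [K1]
  by_cases h : x.1.1 = y.1.1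
  · rw [if_pos h, pk]
    refine Finset.prod_congr rfl fun s _ => ?_
    rw [K1, K1, if_pos (show (evA s x).1.1 = (evA s y).1.1 from congrFun (congrArg Prod.fst h) s),
      if_pos (show (evB s x).1.1 = (evB s y).1.1 from congrFun (congrArg Prod.snd h) s)]
    rfl
  · rw [if_neg h]
    have h2 : ∃ s, x.1.1.1 s ≠ y.1.1.1 s ∨ x.1.1.2 s ≠ y.1.1.2 s := by
      by_contra hc
      push Not at hc
      exact h (Prod.ext (funext fun s => (hc s).1) (funext fun s => (hc s).2))
    obtain ⟨s, hs⟩ := h2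
    symm
    refine Finset.prod_eq_zero (Finset.mem_univ s) ?_
    rw [K1, K1]
    rcases hs with hs | hs
    · rw [if_neg (show ¬ (evA s x).1.1 = (evA s y).1.1 from hs), zero_mul]
    · rw [if_neg (show ¬ (evB s x).1.1 = (evB s y).1.1 from hs), mul_zero]

theorem K2_pk (t : Fin n → A → A → A → A → ℂ) (t' : Fin n → B → B → B → B → ℂ)
    (x y : (((Fin n → A) × (Fin n → B)) × ((Fin n → A) × (Fin n → B))) ×
      ((Fin n → A) × (Fin n → B))) :
    K2 (pk n t t') x y = ∏ s, (K2 (t s) (evA s x) (evA s y) * K2 (t' s) (evB s x) (evB s y)) := by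
  rw [Finset.prod_mul_distrib]
  simp only [K2]
  rw [Finset.prod_univ_sum, Finset.prod_univ_sum, Fintype.piFinset_univ, Fintype.piFinset_univ,
    Finset.sum_mul_sum, Fintype.sum_prod_type]
  refine Finset.sum_congr rfl fun k _ => Finset.sum_congr rfl fun l _ => ?_
  simp only [pk, evA, evB]
  rw [← Finset.prod_mul_distrib, star_prod, ← Finset.prod_mul_distrib]
  refine Finset.prod_congr rfl fun s _ => ?_
  rw [star_mul']
  ring

/-- The strong flip property is stable under tensor products. -/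
theorem SF_pk {t : Fin n → A → A → A → A → ℂ} {t' : Fin n → B → B → B → B → ℂ}
    (h : ∀ s, SF (t s)) (h' : ∀ s, SF (t' s)) : SF (pk n t t') := by
  have key : ∀ s, ((Matrix.of fun x y => K1 (t s) (evA s x) (evA s y) *
        K1 (t' s) (evB s x) (evB s y) : Matrix ((((Fin n → A) × (Fin n → B)) ×
          ((Fin n → A) × (Fin n → B))) × ((Fin n → A) × (Fin n → B))) _ ℂ) +
        (Matrix.of fun x y => K2 (t s) (evA s x) (evA s y) *
          K2 (t' s) (evB s x) (evB s y))).PosSemidef ∧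
      ((Matrix.of fun x y => K1 (t s) (evA s x) (evA s y) *
        K1 (t' s) (evB s x) (evB s y) : Matrix ((((Fin n → A) × (Fin n → B)) ×
          ((Fin n → A) × (Fin n → B))) × ((Fin n → A) × (Fin n → B))) _ ℂ) -
        (Matrix.of fun x y => K2 (t s) (evA s x) (evA s y) *
          K2 (t' s) (evB s x) (evB s y))).PosSemidef := fun s =>
    pair_mul ((h s).1.submatrix (evA (B := B) s)) ((h s).2.submatrix (evA (B := B) s))
      ((h' s).1.submatrix (evB (A := A) s)) ((h' s).2.submatrix (evB (A := A) s))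
  have h1 := pair_prod Finset.univ _ _ (fun s _ => (key s).1) (fun s _ => (key s).2)
  have e1 : (Matrix.of fun x y => ∏ s ∈ Finset.univ, (Matrix.of fun x y =>
      K1 (t s) (evA s x) (evA s y) * K1 (t' s) (evB s x) (evB s y) :
        Matrix ((((Fin n → A) × (Fin n → B)) × ((Fin n → A) × (Fin n → B))) ×
          ((Fin n → A) × (Fin n → B))) _ ℂ) x y : Matrix ((((Fin n → A) × (Fin n → B)) ×
          ((Fin n → A) × (Fin n → B))) × ((Fin n → A) × (Fin n → B))) _ ℂ) =
      K1 (pk n t t') := by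
    ext x y
    rw [K1_pk]
    rfl
  have e2 : (Matrix.of fun x y => ∏ s ∈ Finset.univ, (Matrix.of fun x y =>
      K2 (t s) (evA s x) (evA s y) * K2 (t' s) (evB s x) (evB s y) :
        Matrix ((((Fin n → A) × (Fin n → B)) × ((Fin n → A) × (Fin n → B))) ×
          ((Fin n → A) × (Fin n → B))) _ ℂ) x y : Matrix ((((Fin n → A) × (Fin n → B)) ×
          ((Fin n → A) × (Fin n → B))) × ((Fin n → A) × (Fin n → B))) _ ℂ) =
      K2 (pk n t t') := by
    ext x y
    rw [K2_pk]
    rfl
  rw [e1, e2] at h1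
  exact h1

theorem pk_dual {t : Fin n → A → A → A → A → ℂ} {t' : Fin n → B → B → B → B → ℂ}
    (h : ∀ s p q i j, t s p q i j = t s j i q p) (h' : ∀ s p q i j, t' s p q i j = t' s j i q p)
    (p q i j : (Fin n → A) × (Fin n → B)) : pk n t t' p q i j = pk n t t' j i q p := by
  refine Finset.prod_congr rfl fun s _ => ?_
  rw [h, h']

/-- The product of the actions on a product operator. -/
theorem ap_pk_kron (t : Fin n → A → A → A → A → ℂ) (t' : Fin n → B → B → B → B → ℂ)
    (a : Matrix (Fin n → A) (Fin n → A) ℂ) (b : Matrix (Fin n → B) (Fin n → B) ℂ) :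
    ap (pk n t t') (a ⊗ₖ b) =
      ap (fun p q i j => ∏ s, t s (p s) (q s) (i s) (j s)) a ⊗ₖ
      ap (fun p q i j => ∏ s, t' s (p s) (q s) (i s) (j s)) b := by
  ext i j
  rw [kroneckerMap_apply, ap, ap, ap, Finset.sum_mul_sum, Fintype.sum_prod_type]
  refine Finset.sum_congr rfl fun p _ => Finset.sum_congr rfl fun p' _ => ?_
  rw [Finset.sum_mul_sum, Fintype.sum_prod_type]
  refine Finset.sum_congr rfl fun q _ => Finset.sum_congr rfl fun q' _ => ?_
  rw [kroneckerMap_apply, pk, Finset.prod_mul_distrib]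
  ring

/-- The action on a product of one-copy operators. -/
theorem ap_pk_prod (t : Fin n → A → A → A → A → ℂ) (t' : Fin n → B → B → B → B → ℂ)
    (Y : Fin n → Matrix (A × B) (A × B) ℂ) :
    ap (pk n t t') (fun p q => ∏ s, Y s (p.1 s, p.2 s) (q.1 s, q.2 s)) =
      fun p q => ∏ s, ap (fun x y z w : A × B => t s x.1 y.1 z.1 w.1 * t' s x.2 y.2 z.2 w.2)
        (Y s) (p.1 s, p.2 s) (q.1 s, q.2 s) := by
  funext i j
  simp only [ap]
  have e1 : ∀ s, ∑ p : A × B, ∑ q : A × B, t s p.1 q.1 (i.1 s) (j.1 s) *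
      t' s p.2 q.2 (i.2 s) (j.2 s) * Y s p q = ∑ z : (A × B) × (A × B),
        t s z.1.1 z.2.1 (i.1 s) (j.1 s) * t' s z.1.2 z.2.2 (i.2 s) (j.2 s) * Y s z.1 z.2 :=
    fun s => (Fintype.sum_prod_type' _).symm
  simp only [e1]
  rw [Finset.prod_univ_sum, Fintype.piFinset_univ, ← Fintype.sum_prod_type']
  let eq : (Fin n → (A × B) × (A × B)) ≃
      ((Fin n → A) × (Fin n → B)) × ((Fin n → A) × (Fin n → B)) :=
    { toFun := fun f => ((fun s => (f s).1.1, fun s => (f s).1.2),
        (fun s => (f s).2.1, fun s => (f s).2.2))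
      invFun := fun g => fun s => ((g.1.1 s, g.1.2 s), (g.2.1 s, g.2.2 s))
      left_inv := fun f => rfl
      right_inv := fun g => rfl }
  symm
  refine Fintype.sum_equiv eq _ _ fun f => ?_
  simp only [pk, eq, Equiv.coe_fn_mk]
  rw [← Finset.prod_mul_distrib]

/-- Unitality. -/
theorem ap_pk_one {t : Fin n → A → A → A → A → ℂ} {t' : Fin n → B → B → B → B → ℂ}
    (h : ∀ s, ap (t s) 1 = 1) (h' : ∀ s, ap (t' s) 1 = 1) : ap (pk n t t') 1 = 1 := by
  have e0 : (1 : Matrix ((Fin n → A) × (Fin n → B)) ((Fin n → A) × (Fin n → B)) ℂ) =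
      fun p q => ∏ s : Fin n, (1 : Matrix (A × B) (A × B) ℂ) (p.1 s, p.2 s) (q.1 s, q.2 s) := by
    funext p q
    by_cases hpq : p = q
    · subst hpq
      simp only [one_apply_eq, Finset.prod_const_one]
    · rw [one_apply_ne hpq]
      have h2 : ∃ s, (p.1 s, p.2 s) ≠ (q.1 s, q.2 s) := by
        by_contra hc
        push Not at hc
        exact hpq (Prod.ext (funext fun s => (Prod.ext_iff.mp (hc s)).1)
          (funext fun s => (Prod.ext_iff.mp (hc s)).2))
      obtain ⟨s, hs⟩ := h2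
      symm
      refine Finset.prod_eq_zero (Finset.mem_univ s) ?_
      exact Matrix.one_apply_ne hs
  rw [e0, ap_pk_prod]
  funext p q
  refine Finset.prod_congr rfl fun s _ => ?_
  have e2 : (1 : Matrix (A × B) (A × B) ℂ) = (1 : Matrix A A ℂ) ⊗ₖ (1 : Matrix B B ℂ) := by
    rw [one_kronecker_one]
  have e3 : ap (fun x y z w : A × B => t s x.1 y.1 z.1 w.1 * t' s x.2 y.2 z.2 w.2)
      ((1 : Matrix A A ℂ) ⊗ₖ (1 : Matrix B B ℂ)) = ap (t s) 1 ⊗ₖ ap (t' s) 1 := by
    ext i j
    rw [kroneckerMap_apply, ap, ap, ap, Finset.sum_mul_sum, Fintype.sum_prod_type]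
    refine Finset.sum_congr rfl fun p _ => Finset.sum_congr rfl fun p' _ => ?_
    rw [Finset.sum_mul_sum, Fintype.sum_prod_type]
    refine Finset.sum_congr rfl fun q _ => Finset.sum_congr rfl fun q' _ => ?_
    rw [kroneckerMap_apply]
    ring
  rw [e2, e3, h, h']

end Vale.Agent.P372.Fm
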